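import Mathlib

/-!
The inequalities behind the fan covering of the regular tetrahedron.
-/

namespace Vale.Agent.P243

noncomputable def eps : ℝ := 1 / 10 ^ 4
noncomputable def del : ℝ := 1 / 10 ^ 8
noncomputable def m2 (a b : ℝ) : ℝ := (a * a + a * b + b * b) / 3
noncomputable def m4 (a b : ℝ) : ℝ :=
  (a * a * (a * a) + a * a * (a * b) + a * a * (b * b) + a * b * (b * b) + b * b * (b * b)) / 5
noncomputable def HH (a b : ℝ) : ℝ := 1 / 2 + (eps ^ 2 * (m2 a b + m4 a b) + eps ^ 2 / 50)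
noncomputable def vv (a b : ℝ) : ℝ := eps ^ 2 * ((1 + a * b) ^ 2 + 2 * (a + b) ^ 2)
noncomputable def FF (t : ℝ) : ℝ :=
  t / 4 + eps ^ 2 * (-t / 8 - t ^ 3 / 12 + 7 * t ^ 5 / 40 + t / 40)

theorem prod_close {x y x' y' d e : ℝ} (hx : |x| ≤ 1) (hy' : |y'| ≤ 1) (h1 : |x - x'| ≤ d)
    (h2 : |y - y'| ≤ e) : |x * y - x' * y'| ≤ d + e := by
  have : x * y - x' * y' = x * (y - y') + (x - x') * y' := by ring
  rw [this]
  refine (abs_add_le _ _).trans ?_
  rw [abs_mul, abs_mul]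
  nlinarith [abs_nonneg x, abs_nonneg y', abs_nonneg (y - y'), abs_nonneg (x - x')]

theorem abs_mul_le_one' {x y : ℝ} (hx : |x| ≤ 1) (hy : |y| ≤ 1) : |x * y| ≤ 1 := by
  rw [abs_mul]; nlinarith [abs_nonneg x, abs_nonneg y]

theorem close {a b t : ℝ} (ha : -1 ≤ a) (hb : b ≤ 1) (hab : b = a + del) (h1 : a ≤ t) (h2 : t ≤ b) :
    |t * t - a * b| ≤ 2 * del ∧ |t * t - m2 a b| ≤ 2 * del ∧
      |t * t * (t * t) - m4 a b| ≤ 4 * del := by
  have ht : |t| ≤ 1 := abs_le.2 ⟨by linarith, by linarith⟩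
  have ha' : |a| ≤ 1 := abs_le.2 ⟨by linarith, by linarith⟩
  have hb' : |b| ≤ 1 := abs_le.2 ⟨by linarith, by linarith⟩
  have da : |t - a| ≤ del := abs_le.2 ⟨by linarith, by linarith⟩
  have db : |t - b| ≤ del := abs_le.2 ⟨by linarith, by linarith⟩
  have aa := prod_close ht ha' da da
  have ab := prod_close ht hb' da db
  have bb := prod_close ht hb' db db
  have tt := abs_mul_le_one' ht ht
  have k1 := prod_close tt (abs_mul_le_one' ha' ha') aa aa
  have k2 := prod_close tt (abs_mul_le_one' ha' hb') aa ab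
  have k3 := prod_close tt (abs_mul_le_one' hb' hb') aa bb
  have k4 := prod_close tt (abs_mul_le_one' hb' hb') ab bb
  have k5 := prod_close tt (abs_mul_le_one' hb' hb') bb bb
  unfold m2 m4
  rw [abs_le] at *
  refine ⟨⟨by linarith, by linarith⟩, abs_le.2 ⟨by linarith, by linarith⟩,
    abs_le.2 ⟨by linarith, by linarith⟩⟩

theorem del_pos : 0 < del := by unfold del; positivity

theorem eta_bounds {a b t : ℝ} (ha : -1 ≤ a) (hb : b ≤ 1) (hab : b = a + del) (h1 : a ≤ t)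
    (h2 : t ≤ b) :
    eps ^ 2 * (t * t + t * t * (t * t) - 6 * del + 1 / 50) ≤ HH a b - 1 / 2 ∧
      0 ≤ HH a b - 1 / 2 ∧ HH a b - 1 / 2 ≤ 3 * eps ^ 2 := by
  obtain ⟨-, k2, k4⟩ := close ha hb hab h1 h2
  have ht : |t| ≤ 1 := abs_le.2 ⟨by linarith, by linarith⟩
  have tt := abs_le.1 (abs_mul_le_one' ht ht)
  have t4 := abs_le.1 (abs_mul_le_one' (abs_mul_le_one' ht ht) (abs_mul_le_one' ht ht))
  have p2 := mul_self_nonneg t
  have p4 := mul_self_nonneg (t * t)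
  rw [abs_le] at k2 k4
  unfold HH
  unfold eps del at *
  refine ⟨by linarith, by linarith, by linarith⟩

theorem cross_bound {a b t a' b' t' : ℝ} (ha : -1 ≤ a) (hb : b ≤ 1) (hab : b = a + del)
    (h1 : a ≤ t) (h2 : t ≤ b) (ha' : -1 ≤ a') (hb' : b' ≤ 1) (hab' : b' = a' + del)
    (h1' : a' ≤ t') (h2' : t' ≤ b') :
    (a + b) * t * (1 + a' * b') ≤ 2 * (t * t) + 2 * (t * t * (t' * t')) + 8 * del ∧
      |(a + b) * t * (1 + a' * b')| ≤ 4 ∧ |(a' + b') * t| ≤ 2 ∧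
      |(a' + b') * t - 2 * (t * t')| ≤ del := by
  obtain ⟨k, -, -⟩ := close ha' hb' hab' h1' h2'
  have ht : |t| ≤ 1 := abs_le.2 ⟨by linarith, by linarith⟩
  have hd := del_pos
  have hd1 : del ≤ 1 := by unfold del; norm_num
  have hP : |a' * b'| ≤ 1 := abs_mul_le_one' (abs_le.2 ⟨by linarith, by linarith⟩)
    (abs_le.2 ⟨by linarith, by linarith⟩)
  have hQ : |a + b| ≤ 2 := abs_le.2 ⟨by linarith, by linarith⟩
  have hQ' : |a' + b'| ≤ 2 := abs_le.2 ⟨by linarith, by linarith⟩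
  have hP' : |1 + a' * b'| ≤ 2 := by rw [abs_le] at *; constructor <;> linarith
  have e1 : |(a + b - 2 * t) * t| ≤ del := by
    rw [abs_mul]
    have : |a + b - 2 * t| ≤ del := abs_le.2 ⟨by linarith, by linarith⟩
    nlinarith [abs_nonneg t, abs_nonneg (a + b - 2 * t)]
  have tt := abs_le.1 (abs_mul_le_one' ht ht)
  refine ⟨?_, ?_, ?_, ?_⟩
  · have u1 : (a + b) * t ≤ 2 * (t * t) + del := by linarith [(abs_le.1 e1).2]
    have u2 : 0 ≤ 1 + a' * b' := by linarith [(abs_le.1 hP).1]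
    have u3 : 1 + a' * b' ≤ 1 + t' * t' + 2 * del := by linarith [(abs_le.1 k).1]
    have u4 := mul_le_mul_of_nonneg_right u1 u2
    have u5 : 2 * (t * t) * (1 + a' * b') ≤ 2 * (t * t) * (1 + t' * t' + 2 * del) :=
      mul_le_mul_of_nonneg_left u3 (by nlinarith [mul_self_nonneg t])
    have u6 : del * (1 + a' * b') ≤ del * 2 :=
      mul_le_mul_of_nonneg_left (abs_le.1 hP').2 hd.le
    nlinarith [mul_le_mul_of_nonneg_left tt.2 hd.le]
  · rw [abs_mul, abs_mul]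
    have : |a + b| * |t| ≤ 2 := by nlinarith [abs_nonneg t, abs_nonneg (a + b)]
    nlinarith [abs_nonneg (1 + a' * b'), mul_nonneg (abs_nonneg (a + b)) (abs_nonneg t)]
  · rw [abs_mul]
    nlinarith [abs_nonneg t, abs_nonneg (a' + b')]
  · have : (a' + b') * t - 2 * (t * t') = (a' + b' - 2 * t') * t := by ring
    rw [this, abs_mul]
    have : |a' + b' - 2 * t'| ≤ del := abs_le.2 ⟨by linarith, by linarith⟩
    nlinarith [abs_nonneg t, abs_nonneg (a' + b' - 2 * t')]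

theorem cover_alg {a b a' b' x y s : ℝ} (ha : -1 ≤ a) (hb : b ≤ 1) (hab : b = a + del)
    (ha' : -1 ≤ a') (hb' : b' ≤ 1) (hab' : b' = a' + del)
    (l1 : a * (s - eps * (a + b) * x) ≤ y - eps * (1 + a * b) * x)
    (l2 : y - eps * (1 + a * b) * x ≤ b * (s - eps * (a + b) * x))
    (u1 : a' * (1 - s - eps * (a' + b') * y) ≤ -x - eps * (1 + a' * b') * y)
    (u2 : -x - eps * (1 + a' * b') * y ≤ b' * (1 - s - eps * (a' + b') * y)) :
    s - eps * (a + b) * x ≤ HH a b ∨ 1 - s - eps * (a' + b') * y ≤ HH a' b' := by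
  by_contra hcon
  push Not at hcon
  obtain ⟨g1, g2⟩ := hcon
  have hd := del_pos
  obtain ⟨s0, h3⟩ : ∃ s0, s0 = s - eps * (a + b) * x := ⟨_, rfl⟩
  obtain ⟨s1, h4⟩ : ∃ s1, s1 = 1 - s - eps * (a' + b') * y := ⟨_, rfl⟩
  rw [← h3] at l1 l2 g1
  rw [← h4] at u1 u2 g2
  have p0 : 0 < s0 := by
    linarith [(eta_bounds ha hb hab le_rfl (by linarith)).2.1]
  have p1 : 0 < s1 := by
    linarith [(eta_bounds ha' hb' hab' le_rfl (by linarith)).2.1]
  obtain ⟨t, h1⟩ : ∃ t, t * s0 = y - eps * (1 + a * b) * x := ⟨_, div_mul_cancel₀ _ p0.ne'⟩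
  obtain ⟨t', h2⟩ : ∃ t', t' * s1 = -x - eps * (1 + a' * b') * y := ⟨_, div_mul_cancel₀ _ p1.ne'⟩
  rw [← h1] at l1 l2
  rw [← h2] at u1 u2
  have t1 := le_of_mul_le_mul_right l1 p0
  have t2 := le_of_mul_le_mul_right l2 p0
  have t1' := le_of_mul_le_mul_right u1 p1
  have t2' := le_of_mul_le_mul_right u2 p1
  obtain ⟨e1, e2, e3⟩ := eta_bounds ha hb hab t1 t2
  obtain ⟨f1, f2, f3⟩ := eta_bounds ha' hb' hab' t1' t2'
  obtain ⟨c1, c2, c3, c4⟩ := cross_bound ha hb hab t1 t2 ha' hb' hab' t1' t2'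
  obtain ⟨d1, d2, d3, d4⟩ := cross_bound ha' hb' hab' t1' t2' ha hb hab t1 t2
  have hP : 0 ≤ (1 + a * b) * (1 + a' * b') := by
    have k1 : |a * b| ≤ 1 := abs_mul_le_one' (abs_le.2 ⟨by linarith, by linarith⟩)
      (abs_le.2 ⟨by linarith, by linarith⟩)
    have k2 : |a' * b'| ≤ 1 := abs_mul_le_one' (abs_le.2 ⟨by linarith, by linarith⟩)
      (abs_le.2 ⟨by linarith, by linarith⟩)
    exact mul_nonneg (by linarith [(abs_le.1 k1).1]) (by linarith [(abs_le.1 k2).1])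
  obtain ⟨W, hW⟩ : ∃ W, W = (1 + a * b) * (1 + a' * b') := ⟨_, rfl⟩
  obtain ⟨A, hA⟩ : ∃ A, A = (a + b) * t * (1 + a' * b') := ⟨_, rfl⟩
  obtain ⟨A', hA'⟩ : ∃ A', A' = (a' + b') * t' * (1 + a * b) := ⟨_, rfl⟩
  obtain ⟨B, hB⟩ : ∃ B, B = (a' + b') * t := ⟨_, rfl⟩
  obtain ⟨B', hB'⟩ : ∃ B', B' = (a + b) * t' := ⟨_, rfl⟩
  have key : s0 * (1 + eps ^ 2 * W + eps * B - eps ^ 2 * A) +
      s1 * (1 + eps ^ 2 * W - eps * B' - eps ^ 2 * A') = 1 + eps ^ 2 * W := by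
    rw [hW, hA, hA', hB, hB']
    linear_combination (1 + eps ^ 2 * ((1 + a * b) * (1 + a' * b'))) * (h3 + h4) +
      (eps * (a' + b') - eps ^ 2 * (a + b) * (1 + a' * b')) * h1 -
      (eps * (a + b) + eps ^ 2 * (a' + b') * (1 + a * b)) * h2
  rw [← hW] at hP
  rw [← hA] at c1 c2
  rw [← hA'] at d1 d2
  rw [← hB] at c3 c4
  rw [← hB'] at d3 d4
  rw [abs_le] at c2 c3 c4 d2 d3 d4
  have q1 : 1 - 3 * eps ≤ 1 + eps ^ 2 * W + eps * B - eps ^ 2 * A := by
    unfold eps; linarith only [hP, c2.2, c3.1]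
  have q2 : 1 - 3 * eps ≤ 1 + eps ^ 2 * W - eps * B' - eps ^ 2 * A' := by
    unfold eps; linarith only [hP, d2.2, d3.2]
  have q0 : 0 < 1 - 3 * eps := by unfold eps; norm_num
  have r1 := mul_lt_mul_of_pos_right g1 (q0.trans_le q1)
  have r2 := mul_lt_mul_of_pos_right g2 (q0.trans_le q2)
  have r3 := mul_le_mul_of_nonneg_left q1 e2
  have r4 := mul_le_mul_of_nonneg_left q2 f2
  have am : 2 * (t * t * (t' * t')) ≤ t * t * (t * t) + t' * t' * (t' * t') := by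
    linarith only [sq_nonneg (t * t - t' * t')]
  have cm : t' * t' * (t * t) = t * t * (t' * t') := by ring
  have cm2 : t' * t = t * t' := by ring
  rw [cm] at d1
  rw [cm2] at d4
  unfold eps del at *
  linarith only [key, r1, r2, r3, r4, am, c1, d1, c4.1, d4.2, e1, f1, e3, f3]

theorem cost_alg {a b : ℝ} (ha : -1 ≤ a) (hb : b ≤ 1) (hab : b = a + del) :
    del * HH a b ^ 2 / Real.sqrt (1 + vv a b) ≤ FF b - FF a := by
  have hd := del_pos
  obtain ⟨k1, k2, k4⟩ := close ha hb hab le_rfl (by linarith)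
  obtain ⟨-, e2, e3⟩ := eta_bounds ha hb hab le_rfl (by linarith)
  have ha1 : |a| ≤ 1 := abs_le.2 ⟨by linarith, by linarith⟩
  have hb1 : |b| ≤ 1 := abs_le.2 ⟨by linarith, by linarith⟩
  have ab := abs_mul_le_one' ha1 hb1
  have k5 := prod_close (abs_mul_le_one' ha1 ha1) ab k1 k1
  have aa := abs_le.1 (abs_mul_le_one' ha1 ha1)
  have a4 := abs_le.1 (abs_mul_le_one' (abs_mul_le_one' ha1 ha1) (abs_mul_le_one' ha1 ha1))
  have hF : FF b - FF a = del * (1 / 4 + eps ^ 2 * (-1 / 8 - m2 a b / 4 + 7 * m4 a b / 8 + 1 / 40)) := by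
    have : del = b - a := by linarith
    rw [this]
    unfold FF m2 m4
    ring
  have v0 : 0 ≤ vv a b := by unfold vv; positivity
  have hQ : (a + b) ^ 2 = 4 * (a * b) + del ^ 2 := by
    have : del = b - a := by linarith
    rw [this]; ring
  have hv : vv a b = eps ^ 2 * (1 + 10 * (a * b) + a * b * (a * b) + 2 * del ^ 2) := by
    unfold vv; rw [hQ]; ring
  have b4 := abs_le.1 (abs_mul_le_one' ab ab)
  rw [abs_le] at k1 k2 k4 k5 ab
  have v1 : vv a b ≤ 13 * eps ^ 2 := by rw [hv]; unfold eps del; linarith only [ab.2, b4.2]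
  have v2 : eps ^ 2 * (1 + 10 * m2 a b + m4 a b - 48 * del) ≤ vv a b := by
    rw [hv]; unfold eps del at *; linarith only [k1.2, k2.1, k4.1, k5.2]
  obtain ⟨v, hv'⟩ : ∃ v, v = vv a b := ⟨_, rfl⟩
  rw [← hv'] at v0 v1 v2 ⊢
  have hs : 1 + v / 2 - 22 * eps ^ 4 ≤ Real.sqrt (1 + v) := by
    refine Real.le_sqrt_of_sq_le ?_
    have := mul_le_mul v1 v1 v0 (by positivity)
    unfold eps at *
    linarith only [this, v0]
  have hs0 : 0 < 1 + v / 2 - 22 * eps ^ 4 := by unfold eps; linarith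
  rw [hF, mul_div_assoc]
  refine mul_le_mul_of_nonneg_left ?_ hd.le
  rw [div_le_iff₀ (hs0.trans_le hs)]
  obtain ⟨R, hR⟩ : ∃ R, R = eps ^ 2 * (-1 / 8 - m2 a b / 4 + 7 * m4 a b / 8 + 1 / 40) := ⟨_, rfl⟩
  obtain ⟨η, hη⟩ : ∃ η, η = HH a b - 1 / 2 := ⟨_, rfl⟩
  have hη2 : η = eps ^ 2 * (m2 a b + m4 a b) + eps ^ 2 / 50 := by rw [hη]; unfold HH; ring
  have hH : HH a b = 1 / 2 + η := by linarith
  rw [← hR, hH]
  rw [← hη] at e2 e3
  have R1 : -eps ^ 2 ≤ R := by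
    rw [hR]; unfold eps del at *
    linarith only [mul_self_nonneg (a * a), aa.2, k2.1, k4.2]
  have R0 : 0 ≤ 1 / 4 + R := by unfold eps at R1; linarith
  refine le_trans ?_ (mul_le_mul_of_nonneg_left hs R0)
  have w1 : η * η ≤ 9 * eps ^ 4 := by
    have := mul_le_mul e3 e3 e2 (by positivity)
    linarith only [this]
  have w2 : -(7 * eps ^ 4) ≤ R * (v / 2 - 22 * eps ^ 4) := by
    have : |R * (v / 2 - 22 * eps ^ 4)| ≤ 7 * eps ^ 4 := by
      have R2 : R ≤ eps ^ 2 := by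
        rw [hR]; unfold eps del at *
        linarith only [mul_self_nonneg a, a4.2, k2.2, k4.1]
      rw [abs_mul]
      have i1 : |R| ≤ eps ^ 2 := abs_le.2 ⟨R1, R2⟩
      have i2 : |v / 2 - 22 * eps ^ 4| ≤ 7 * eps ^ 2 := by
        unfold eps at *; exact abs_le.2 ⟨by linarith, by linarith⟩
      calc |R| * |v / 2 - 22 * eps ^ 4| ≤ eps ^ 2 * (7 * eps ^ 2) :=
            mul_le_mul i1 i2 (abs_nonneg _) (sq_nonneg _)
        _ = 7 * eps ^ 4 := by ring
    exact (abs_le.1 this).1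
  unfold eps del at *
  linarith only [w1, w2, hR, hη2, v2]

theorem FF_total : FF 1 - FF (-1) < 1 / 2 := by unfold FF eps; norm_num

theorem discrete_ivt (f : ℕ → ℝ) (N : ℕ) (h0 : 0 ≤ f 0) (hN : f (N + 1) ≤ 0) :
    ∃ k ≤ N, 0 ≤ f k ∧ f (k + 1) ≤ 0 := by
  induction N with
  | zero => exact ⟨0, le_rfl, h0, hN⟩
  | succ N ih =>
    by_cases h : f (N + 1) ≤ 0
    · obtain ⟨k, hk, h⟩ := ih h
      exact ⟨k, by omega, h⟩
    · exact ⟨N + 1, le_rfl, (not_le.1 h).le, hN⟩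

theorem seven (x y z : ℝ) (h : x * x + y * y + z * z = 1) :
    4 * √2 ≤ |8 * x| ∨ 4 * √2 ≤ |8 * y| ∨ 4 * √2 ≤ |8 * z| ∨ 4 * √2 ≤ |4 * (x - y - z)| ∨
    4 * √2 ≤ |4 * (x - y + z)| ∨ 4 * √2 ≤ |4 * (-x - y + z)| ∨ 4 * √2 ≤ |4 * (x + y + z)| := by
  by_contra hc
  push Not at hc
  obtain ⟨h1, h2, h3, h4, h5, h6, h7⟩ := hc
  have k : ∀ w : ℝ, |w| < 4 * √2 → w * w < 32 := by
    intro w hw
    have := Real.mul_self_sqrt (show (0 : ℝ) ≤ 2 by norm_num)
    rw [← abs_mul_abs_self]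
    nlinarith [abs_nonneg w]
  have g1 := k _ h1
  have g2 := k _ h2
  have g3 := k _ h3
  have g4 := k _ h4
  have g5 := k _ h5
  have g6 := k _ h6
  have g7 := k _ h7
  have tri : ∀ X Y Z : ℝ, 0 ≤ X → 0 ≤ Y → 0 ≤ Z → X * X < Y * Y + Z * Z →
      X * X ≤ X * Y + X * Z := by
    intro X Y Z hX hY hZ h
    have : X ≤ Y + Z := by
      by_contra hh
      push Not at hh
      nlinarith [mul_nonneg hY hZ]
    nlinarith
  have fin : ∀ X Y Z : ℝ, 0 ≤ X → 0 ≤ Y → 0 ≤ Z → X * X = x * x → Y * Y = y * y → Z * Z = z * z →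
      (X + Y + Z) * (X + Y + Z) < 2 → False := by
    intro X Y Z hX hY hZ e1 e2 e3 hh
    have t1 := tri X Y Z hX hY hZ (by linarith)
    have t2 := tri Y X Z hY hX hZ (by linarith)
    have t3 := tri Z X Y hZ hX hY (by linarith)
    nlinarith
  rcases le_total 0 x with hx | hx <;> rcases le_total 0 y with hy | hy <;>
    rcases le_total 0 z with hz | hz
  · exact fin x y z hx hy hz rfl rfl rfl (by linarith)
  · exact fin x y (-z) hx hy (by linarith) rfl rfl (by ring) (by linarith)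
  · exact fin x (-y) z hx (by linarith) hz rfl (by ring) rfl (by linarith)
  · exact fin x (-y) (-z) hx (by linarith) (by linarith) rfl (by ring) (by ring) (by linarith)
  · exact fin (-x) y z (by linarith) hy hz (by ring) rfl rfl (by linarith)
  · exact fin (-x) y (-z) (by linarith) hy (by linarith) (by ring) rfl (by ring) (by linarith)
  · exact fin (-x) (-y) z (by linarith) (by linarith) hz (by ring) (by ring) rfl (by linarith)
  · exact fin (-x) (-y) (-z) (by linarith) (by linarith) (by linarith) (by ring) (by ring) (by ring)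
      (by linarith)

end Vale.Agent.P243
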