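import Vale.Agent.P243.Defs

/-!
Areas of projected triangles.
-/

open MeasureTheory Set
open scoped ENNReal

namespace Vale.Agent.P243

abbrev E2 : Type := EuclideanSpace ℝ (Fin 2)

def T0 : Set E2 := {p | 0 ≤ p 0 ∧ 0 ≤ p 1 ∧ p 0 + p 1 ≤ 1}
def T1 : Set E2 := {p | 0 ≤ p 0 ∧ 0 < p 1 ∧ p 0 + p 1 ≤ 1}

noncomputable def tau : ℝ≥0∞ := volume T0

theorem cont0 : Continuous fun p : E2 => p 0 := by fun_prop
theorem cont1 : Continuous fun p : E2 => p 1 := by fun_prop
theorem cont01 : Continuous fun p : E2 => p 0 + p 1 := by fun_prop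

theorem isCompact_T0 : IsCompact T0 := by
  refine Metric.isCompact_of_isClosed_isBounded ?_ ?_
  · exact IsClosed.and (isClosed_le continuous_const cont0)
      (IsClosed.and (isClosed_le continuous_const cont1) (isClosed_le cont01 continuous_const))
  · refine (Metric.isBounded_closedBall (x := (0 : E2)) (r := 2)).subset ?_
    rintro p ⟨h0, h1, h2⟩
    rw [mem_closedBall_zero_iff, EuclideanSpace.norm_eq, Fin.sum_univ_two]
    refine Real.sqrt_le_iff.2 ⟨by norm_num, ?_⟩
    simp only [Real.norm_eq_abs, sq_abs]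
    nlinarith

theorem tau_lt_top : tau < ⊤ := isCompact_T0.measure_lt_top

theorem tau_pos : 0 < tau := by
  have ho : IsOpen {p : E2 | 0 < p 0 ∧ 0 < p 1 ∧ p 0 + p 1 < 1} :=
    IsOpen.and (isOpen_lt continuous_const cont0)
      (IsOpen.and (isOpen_lt continuous_const cont1) (isOpen_lt cont01 continuous_const))
  refine (ho.measure_pos volume ⟨!₂[1 / 4, 1 / 4], ?_⟩).trans_le (measure_mono ?_)
  · simp; norm_num
  · rintro p ⟨h0, h1, h2⟩
    exact ⟨h0.le, h1.le, h2.le⟩

theorem volume_T1 : volume T1 = tau := by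
  refine le_antisymm (measure_mono fun p hp => ⟨hp.1, hp.2.1.le, hp.2.2⟩) ?_
  have hz : volume (LinearMap.ker (EuclideanSpace.projₗ (𝕜 := ℝ) (1 : Fin 2)) : Set E2) = 0 := by
    refine Measure.addHaar_submodule _ _ fun h => ?_
    have : (!₂[0, 1] : E2) ∈ LinearMap.ker (EuclideanSpace.projₗ (𝕜 := ℝ) (1 : Fin 2)) := by
      rw [h]; trivial
    simp at this
  refine (measure_mono (t := T1 ∪ (LinearMap.ker (EuclideanSpace.projₗ (𝕜 := ℝ) (1 : Fin 2)) :
    Set E2)) ?_).trans ((measure_union_le _ _).trans (by rw [hz, add_zero]))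
  rintro p ⟨h0, h1, h2⟩
  rcases h1.eq_or_lt with h | h
  · right; simp [← h]
  · left; exact ⟨h0, h, h2⟩

theorem measurableSet_T1 : MeasurableSet T1 :=
  MeasurableSet.inter (isClosed_le (continuous_const (y := (0 : ℝ))) cont0).measurableSet
    (MeasurableSet.inter (isOpen_lt (continuous_const (y := (0 : ℝ))) cont1).measurableSet
      (isClosed_le cont01 (continuous_const (y := (1 : ℝ)))).measurableSet)

def det3 (u a b : E3) : ℝ :=
  u 0 * (a 1 * b 2 - a 2 * b 1) - u 1 * (a 0 * b 2 - a 2 * b 0) + u 2 * (a 0 * b 1 - a 1 * b 0)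

noncomputable abbrev pr (u : E3) : E3 →L[ℝ] (ℝ ∙ u)ᗮ := (ℝ ∙ u)ᗮ.orthogonalProjectionOnto

theorem pr_val {u : E3} (hu : ‖u‖ = 1) (a : E3) : (pr u a : E3) = a - (inner ℝ u a) • u := by
  have := Submodule.starProjection_orthogonal_val (K := ℝ ∙ u) a
  rw [Submodule.starProjection_unit_singleton ℝ hu] at this
  exact this

theorem inner3 (a b : E3) : inner ℝ a b = a 0 * b 0 + a 1 * b 1 + a 2 * b 2 := by
  simp [PiLp.inner_apply, Fin.sum_univ_three]; ring

theorem unit3 {u : E3} (hu : ‖u‖ = 1) : u 0 * u 0 + u 1 * u 1 + u 2 * u 2 = 1 := by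
  rw [← inner3, real_inner_self_eq_norm_sq, hu]; norm_num

theorem inner_pr {u : E3} (hu : ‖u‖ = 1) (a b : E3) :
    inner ℝ (pr u a) (pr u b) = inner ℝ a b - inner ℝ u a * inner ℝ u b := by
  rw [Submodule.coe_inner, pr_val hu, pr_val hu]
  have h := unit3 hu
  simp only [inner3, PiLp.sub_apply, PiLp.smul_apply, smul_eq_mul]
  linear_combination ((u 0 * a 0 + u 1 * a 1 + u 2 * a 2) * (u 0 * b 0 + u 1 * b 1 + u 2 * b 2)) * h

/-- The affine parametrisation of a triangle. -/
def tri (c a b : E3) (p : E2) : E3 := c + p 0 • a + p 1 • b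

theorem volume_tri {u : E3} (hu : ‖u‖ = 1) (c a b : E3) (S : Set E2) :
    volume (pr u '' (tri c a b '' S)) = ENNReal.ofReal |det3 u a b| * volume S := by
  have : Fact (Module.finrank ℝ E3 = 2 + 1) := ⟨by simp⟩
  have hu0 : u ≠ 0 := by rintro rfl; simp at hu
  let e : OrthonormalBasis (Fin 2) ℝ (ℝ ∙ u)ᗮ := OrthonormalBasis.fromOrthogonalSpanSingleton 2 hu0
  let v : Fin 2 → (ℝ ∙ u)ᗮ := ![pr u a, pr u b]
  let M : Matrix (Fin 2) (Fin 2) ℝ := fun i j => e.repr (v j) i
  let f := Matrix.toLin e.toBasis e.toBasis M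
  have hf : ∀ i, f (e i) = v i := by
    intro i
    have := Matrix.toLin_self e.toBasis e.toBasis M i
    simp only [OrthonormalBasis.coe_toBasis] at this
    rw [this]
    exact e.sum_repr (v i)
  have h1 : pr u '' (tri c a b '' S) = (fun x => pr u c + x) '' (f '' (e.repr ⁻¹' S)) := by
    have e0 : e.repr ⁻¹' S = e.repr.symm '' S := (e.repr.toEquiv.image_symm_eq_preimage S).symm
    rw [e0, image_image, image_image, image_image]
    refine image_congr fun p _ => ?_
    rw [← e.sum_repr_symm p]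
    simp [tri, Fin.sum_univ_two, hf, v, add_assoc]
  rw [h1, image_add_left, measure_preimage_add, Measure.addHaar_image_linearMap,
    e.measurePreserving_repr.measure_preimage_emb e.repr.toHomeomorph.measurableEmbedding,
    LinearMap.det_toLin, Matrix.det_fin_two]
  congr 2
  rw [← sq_eq_sq_iff_abs_eq_abs]
  have k : ∀ x y : (ℝ ∙ u)ᗮ, inner ℝ x y = e.repr x 0 * e.repr y 0 + e.repr x 1 * e.repr y 1 := by
    intro x y
    rw [← e.repr.inner_map_map, PiLp.inner_apply, Fin.sum_univ_two]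
    simp only [RCLike.inner_apply, conj_trivial]
    ring
  have k1 := k (pr u a) (pr u a)
  have k2 := k (pr u b) (pr u b)
  have k3 := k (pr u a) (pr u b)
  rw [inner_pr hu] at k1 k2 k3
  have h := unit3 hu
  simp only [inner3] at k1 k2 k3
  have g : (M 0 0 * M 1 1 - M 0 1 * M 1 0) ^ 2 =
      (e.repr (pr u a) 0 * e.repr (pr u a) 0 + e.repr (pr u a) 1 * e.repr (pr u a) 1) *
      (e.repr (pr u b) 0 * e.repr (pr u b) 0 + e.repr (pr u b) 1 * e.repr (pr u b) 1) -
      (e.repr (pr u a) 0 * e.repr (pr u b) 0 + e.repr (pr u a) 1 * e.repr (pr u b) 1) ^ 2 := by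
    simp only [M, v, Matrix.cons_val_zero, Matrix.cons_val_one]
    ring
  rw [g, ← k1, ← k2, ← k3]
  unfold det3
  linear_combination (-((a 0 * a 0 + a 1 * a 1 + a 2 * a 2) * (b 0 * b 0 + b 1 * b 1 + b 2 * b 2) -
    (a 0 * b 0 + a 1 * b 1 + a 2 * b 2) ^ 2)) * h

theorem continuous_tri (c a b : E3) : Continuous (tri c a b) := by
  unfold tri; fun_prop

theorem isCompact_base (u c a b : E3) : IsCompact (pr u '' (tri c a b '' T0)) :=
  (isCompact_T0.image (continuous_tri c a b)).image (pr u).continuous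

theorem tri_subset {K : Set E3} (hK : Convex ℝ K) {c a b : E3} (hc : c ∈ K) (ha : c + a ∈ K)
    (hb : c + b ∈ K) : tri c a b '' T0 ⊆ K := by
  rintro _ ⟨p, ⟨h0, h1, h2⟩, rfl⟩
  have := hK.sum_mem (t := Finset.univ) (w := ![1 - p 0 - p 1, p 0, p 1]) (z := ![c, c + a, c + b])
    (fun i _ => by fin_cases i <;> simp <;> linarith) (by simp [Fin.sum_univ_three]; ring)
    (fun i _ => by fin_cases i <;> simpa)
  convert this using 1
  simp only [tri, Fin.sum_univ_three, Matrix.cons_val_zero, Matrix.cons_val_one, Matrix.cons_val]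
  module

theorem tri_le {K : Set E3} (hK : Convex ℝ K) {u c a b : E3} (hu : ‖u‖ = 1) (hc : c ∈ K)
    (ha : c + a ∈ K) (hb : c + b ∈ K) : ENNReal.ofReal |det3 u a b| * tau ≤ projArea K u := by
  rw [tau, ← volume_tri hu c]
  exact measure_mono (image_mono (tri_subset hK hc ha hb))

theorem det3_pr {u : E3} (hu : ‖u‖ = 1) (a x : E3) : det3 u a (pr u x) = det3 u a x := by
  rw [pr_val hu]
  simp only [det3, PiLp.sub_apply, PiLp.smul_apply, smul_eq_mul]
  ring

theorem quad_le {K : Set E3} (hK : Convex ℝ K) {u c a b b' : E3} (hu : ‖u‖ = 1) (hc : c ∈ K)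
    (ha : c + a ∈ K) (hb : c + b ∈ K) (hb' : c + b' ∈ K) :
    ENNReal.ofReal |det3 u a b - det3 u a b'| * tau ≤ projArea K u := by
  have key : ∀ {b b' : E3}, c + b ∈ K → c + b' ∈ K → det3 u a b' < 0 → 0 < det3 u a b →
      ENNReal.ofReal |det3 u a b - det3 u a b'| * tau ≤ projArea K u := by
    intro b b' hb hb' h1 h2
    have hd : Disjoint (pr u '' (tri c a b' '' T1)) (pr u '' (tri c a b '' T0)) := by
      rw [Set.disjoint_left]
      rintro _ ⟨_, ⟨p, hp, rfl⟩, rfl⟩ ⟨_, ⟨q, hq, rfl⟩, h⟩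
      have e := congrArg (fun x : (ℝ ∙ u)ᗮ => det3 u a x) h
      simp only [det3_pr hu] at e
      have e1 : ∀ (b : E3) (p : E2), det3 u a (tri c a b p) = det3 u a c + p 1 * det3 u a b := by
        intro b p
        simp only [det3, tri, PiLp.add_apply, PiLp.smul_apply, smul_eq_mul]
        ring
      rw [e1, e1] at e
      nlinarith [mul_nonneg hq.2.1 h2.le, mul_pos hp.2.1 (neg_pos.2 h1)]
    have hu2 := measure_union (μ := volume) hd (isCompact_base u c a b).measurableSet
    rw [volume_tri hu, volume_tri hu, volume_T1] at hu2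
    have : |det3 u a b - det3 u a b'| = |det3 u a b'| + |det3 u a b| := by
      rw [abs_of_pos h2, abs_of_neg h1, abs_of_pos (by linarith)]; ring
    rw [this, ENNReal.ofReal_add (abs_nonneg _) (abs_nonneg _), add_mul]
    refine hu2.symm.le.trans (measure_mono (union_subset (image_mono ?_)
      (image_mono (tri_subset hK hc ha hb))))
    have hT : T1 ⊆ T0 := fun p hp => ⟨hp.1, hp.2.1.le, hp.2.2⟩
    exact (image_mono hT).trans (tri_subset hK hc ha hb')
  by_cases h1 : det3 u a b' < 0 ∧ 0 < det3 u a b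
  · exact key hb hb' h1.1 h1.2
  by_cases h2 : det3 u a b < 0 ∧ 0 < det3 u a b'
  · rw [abs_sub_comm]; exact key hb' hb h2.1 h2.2
  have h4 : ∀ x y : ℝ, ¬(y < 0 ∧ 0 < x) → ¬(x < 0 ∧ 0 < y) → |x - y| ≤ |x| ∨ |x - y| ≤ |y| := by
    intro x y h1 h2
    cases abs_cases x <;> cases abs_cases y <;> cases abs_cases (x - y) <;> grind
  rcases h4 _ _ h1 h2 with h | h
  · exact le_trans (mul_le_mul_left (ENNReal.ofReal_le_ofReal h) _) (tri_le hK hu hc ha hb)
  · exact le_trans (mul_le_mul_left (ENNReal.ofReal_le_ofReal h) _) (tri_le hK hu hc ha hb')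

end Vale.Agent.P243
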