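import Mathlib

/-!
Definitions used in the statement of P243 (Bang's cylinder covering problem).
They are written for a finite-dimensional real inner product space `V`; the theorem takes
`V = ℝ³`.
-/

open MeasureTheory
open scoped ENNReal

namespace Vale.Agent.P243

/-- Euclidean three-space. -/
abbrev E3 : Type := EuclideanSpace ℝ (Fin 3)

variable {V : Type} [NormedAddCommGroup V] [InnerProductSpace ℝ V] [FiniteDimensional ℝ V]
  [MeasurableSpace V] [BorelSpace V]

/-- A compact convex set with nonempty interior. -/
def IsConvexBody (K : Set V) : Prop := IsCompact K ∧ Convex ℝ K ∧ (interior K).Nonempty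

/-- The hyperplane `u^⊥`. -/
noncomputable abbrev perp (u : V) : Submodule ℝ V := (ℝ ∙ u)ᗮ

/-- The Lebesgue measure, inside the Euclidean hyperplane `u^⊥`, of a subset of `u^⊥`. -/
noncomputable def area (u : V) (B : Set (perp u)) : ℝ≥0∞ := volume B

/-- `u` is a unit vector and `B ⊆ u^⊥` is measurable of finite area. -/
def IsBase (u : V) (B : Set (perp u)) : Prop := ‖u‖ = 1 ∧ MeasurableSet B ∧ area u B < ⊤

/-- The area of the orthogonal projection of `K` onto `u^⊥`. -/
noncomputable def projArea (K : Set V) (u : V) : ℝ≥0∞ :=
  area u ((perp u).orthogonalProjectionOnto '' K)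

/-- The smallest area of an orthogonal projection of `K` onto a hyperplane. -/
noncomputable def minProjArea (K : Set V) : ℝ≥0∞ := ⨅ (u : V) (_ : ‖u‖ = 1), projArea K u

/-- The cylinder `B + ℝ u` with base `B ⊆ u^⊥`. -/
def cylinder (u : V) (B : Set (perp u)) : Set V :=
  {p | ∃ b ∈ B, ∃ t : ℝ, p = (b : V) + t • u}

end Vale.Agent.P243
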