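import Vale.Agent.P243.Area
import Vale.Agent.P243.Alg

/-!
The fan covering of the regular tetrahedron.
-/

open MeasureTheory Set
open scoped ENNReal

namespace Vale.Agent.P243

def Tet : Set E3 := {p | |p 0 + p 1| ≤ 1 - p 2 ∧ |p 0 - p 1| ≤ 1 + p 2}

theorem convex_Tet : Convex ℝ Tet := by
  intro p hp q hq a b ha hb hab
  obtain ⟨p1, p2⟩ := hp
  obtain ⟨q1, q2⟩ := hq
  rw [abs_le] at p1 p2 q1 q2
  simp only [Tet, mem_ofPred_eq, PiLp.add_apply, PiLp.smul_apply, smul_eq_mul, abs_le]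
  refine ⟨⟨?_, ?_⟩, ?_, ?_⟩
  · nlinarith [mul_le_mul_of_nonneg_left p1.1 ha, mul_le_mul_of_nonneg_left q1.1 hb]
  · nlinarith [mul_le_mul_of_nonneg_left p1.2 ha, mul_le_mul_of_nonneg_left q1.2 hb]
  · nlinarith [mul_le_mul_of_nonneg_left p2.1 ha, mul_le_mul_of_nonneg_left q2.1 hb]
  · nlinarith [mul_le_mul_of_nonneg_left p2.2 ha, mul_le_mul_of_nonneg_left q2.2 hb]

theorem contA : Continuous fun p : E3 => |p 0 + p 1| := by fun_prop
theorem contB : Continuous fun p : E3 => 1 - p 2 := by fun_prop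
theorem contC : Continuous fun p : E3 => |p 0 - p 1| := by fun_prop
theorem contD : Continuous fun p : E3 => 1 + p 2 := by fun_prop

theorem isCompact_Tet : IsCompact Tet := by
  refine Metric.isCompact_of_isClosed_isBounded
    (IsClosed.and (isClosed_le contA contB) (isClosed_le contC contD)) ?_
  refine (Metric.isBounded_closedBall (x := (0 : E3)) (r := 2)).subset ?_
  rintro p ⟨h0, h1⟩
  rw [mem_closedBall_zero_iff, EuclideanSpace.norm_eq, Fin.sum_univ_three]
  refine Real.sqrt_le_iff.2 ⟨by norm_num, ?_⟩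
  simp only [Real.norm_eq_abs, sq_abs]
  rw [abs_le] at h0 h1
  have a0 : p 0 ^ 2 ≤ 1 := by nlinarith
  have a1 : p 1 ^ 2 ≤ 1 := by nlinarith
  have a2 : p 2 ^ 2 ≤ 1 := by nlinarith
  linarith

theorem interior_Tet : (interior Tet).Nonempty := by
  have hs : {p : E3 | |p 0 + p 1| < 1 - p 2 ∧ |p 0 - p 1| < 1 + p 2} ⊆ Tet :=
    fun p hp => ⟨hp.1.le, hp.2.le⟩
  refine ⟨0, interior_maximal hs (IsOpen.and (isOpen_lt contA contB) (isOpen_lt contC contD)) ?_⟩
  simp

theorem projArea_Tet {u : E3} (hu : ‖u‖ = 1) : ENNReal.ofReal (4 * √2) * tau ≤ projArea Tet u := by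
  have hA : (!₂[-1, -1, -1] : E3) ∈ Tet := by simp [Tet]; norm_num
  have hB : (!₂[-1, -1, -1] : E3) + !₂[2, 2, 0] ∈ Tet := by simp [Tet]; norm_num
  have hC : (!₂[-1, -1, -1] : E3) + !₂[2, 0, 2] ∈ Tet := by simp [Tet]; norm_num
  have hD : (!₂[-1, -1, -1] : E3) + !₂[0, 2, 2] ∈ Tet := by simp [Tet]; norm_num
  have hB' : (!₂[1, 1, -1] : E3) ∈ Tet := by simp [Tet]; norm_num
  have hC' : (!₂[1, 1, -1] : E3) + !₂[0, -2, 2] ∈ Tet := by simp [Tet]; norm_num
  have hD' : (!₂[1, 1, -1] : E3) + !₂[-2, 0, 2] ∈ Tet := by simp [Tet]; norm_num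
  have fin : ∀ {w w' : ℝ}, 4 * √2 ≤ |w| → ENNReal.ofReal |w'| * tau ≤ projArea Tet u →
      (w' = w ∨ w' = -w) → ENNReal.ofReal (4 * √2) * tau ≤ projArea Tet u := by
    intro w w' h1 h2 h3
    refine le_trans (mul_le_mul_left (ENNReal.ofReal_le_ofReal ?_) _) h2
    rcases h3 with rfl | rfl
    · exact h1
    · rwa [abs_neg]
  rcases seven _ _ _ (unit3 hu) with h | h | h | h | h | h | h
  · exact fin h (quad_le convex_Tet hu hA hD hB hC) (Or.inr (by simp [det3]; ring))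
  · exact fin h (quad_le convex_Tet hu hA hC hB hD) (Or.inl (by simp [det3]; ring))
  · exact fin h (quad_le convex_Tet hu hA hB hC hD) (Or.inr (by simp [det3]; ring))
  · exact fin h (tri_le convex_Tet hu hA hB hC) (Or.inl (by simp [det3]; ring))
  · exact fin h (tri_le convex_Tet hu hA hB hD) (Or.inl (by simp [det3]; ring))
  · exact fin h (tri_le convex_Tet hu hA hC hD) (Or.inl (by simp [det3]; ring))
  · exact fin h (tri_le convex_Tet hu hB' hC' hD') (Or.inr (by simp [det3]; ring))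

noncomputable def dir (σ : Bool) (a b : ℝ) : E3 :=
  bif σ then !₂[1 + eps * (1 + a * b), 1 - eps * (1 + a * b), 2 * (eps * (a + b))]
  else !₂[1 - eps * (1 + a * b), -1 - eps * (1 + a * b), -2 * (eps * (a + b))]

noncomputable def apex (σ : Bool) : E3 := bif σ then !₂[0, 0, -1] else !₂[0, 0, 1]

noncomputable def edge (σ : Bool) (H t : ℝ) : E3 :=
  bif σ then !₂[H * t, -(H * t), 2 * H] else !₂[-(H * t), -(H * t), -2 * H]

theorem norm_dir (σ : Bool) (a b : ℝ) : ‖dir σ a b‖ = √2 * √(1 + vv a b) := by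
  rw [EuclideanSpace.norm_eq, Fin.sum_univ_three, ← Real.sqrt_mul (by norm_num)]
  congr 1
  cases σ <;> simp [dir, vv, sq_abs, mul_pow] <;> ring

theorem norm_dir_pos (σ : Bool) (a b : ℝ) : 0 < ‖dir σ a b‖ := by
  rw [norm_dir]
  have : 0 ≤ vv a b := by unfold vv; positivity
  positivity

noncomputable def udir (σ : Bool) (a b : ℝ) : E3 := ‖dir σ a b‖⁻¹ • dir σ a b

theorem norm_udir (σ : Bool) (a b : ℝ) : ‖udir σ a b‖ = 1 := by
  rw [udir, norm_smul, norm_inv, norm_norm, inv_mul_cancel₀ (norm_dir_pos σ a b).ne']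

noncomputable def base (σ : Bool) (a b : ℝ) : Set (ℝ ∙ udir σ a b)ᗮ :=
  pr (udir σ a b) '' (tri (apex σ) (edge σ (HH a b) a) (edge σ (HH a b) b) '' T0)

theorem volume_base (σ : Bool) {a b : ℝ} (ha : -1 ≤ a) (hb : b ≤ 1) (hab : b = a + del) :
    volume (base σ a b) ≤ ENNReal.ofReal (2 * √2 * (FF b - FF a)) * tau := by
  rw [base, volume_tri (norm_udir σ a b)]
  refine mul_le_mul_left (ENNReal.ofReal_le_ofReal ?_) _
  have h1 : det3 (udir σ a b) (edge σ (HH a b) a) (edge σ (HH a b) b) =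
      ‖dir σ a b‖⁻¹ * det3 (dir σ a b) (edge σ (HH a b) a) (edge σ (HH a b) b) := by
    simp only [det3, udir, PiLp.smul_apply, smul_eq_mul]; ring
  have h2 : |det3 (dir σ a b) (edge σ (HH a b) a) (edge σ (HH a b) b)| = 4 * (del * HH a b ^ 2) := by
    have hd : del = b - a := by linarith
    have hp : 0 ≤ 4 * (del * HH a b ^ 2) := by have := del_pos; positivity
    rw [abs_eq hp, hd]
    cases σ
    · right; simp [det3, dir, edge]; ring
    · left; simp [det3, dir, edge]; ring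
  rw [h1, abs_mul, h2, abs_of_pos (inv_pos.2 (norm_dir_pos σ a b)), norm_dir]
  have h3 := cost_alg ha hb hab
  have h4 : 0 < √(1 + vv a b) := by
    have : 0 ≤ vv a b := by unfold vv; positivity
    positivity
  have h5 : (√2 * √(1 + vv a b))⁻¹ * (4 * (del * HH a b ^ 2)) =
      2 * √2 * (del * HH a b ^ 2 / √(1 + vv a b)) := by
    have := Real.sq_sqrt (show (0 : ℝ) ≤ 2 by norm_num)
    field_simp
    rw [this]; ring
  rw [h5]
  exact mul_le_mul_of_nonneg_left h3 (by positivity)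

theorem mem_cyl (σ : Bool) (a b : ℝ) {q : E2} (hq : q ∈ T0) (r : ℝ) :
    tri (apex σ) (edge σ (HH a b) a) (edge σ (HH a b) b) q + r • dir σ a b ∈
      cylinder (udir σ a b) (base σ a b) := by
  refine ⟨_, ⟨_, ⟨q, hq, rfl⟩, rfl⟩,
    inner ℝ (udir σ a b) (tri (apex σ) (edge σ (HH a b) a) (edge σ (HH a b) b) q) +
      r * ‖dir σ a b‖, ?_⟩
  rw [pr_val (norm_udir σ a b), add_smul, ← add_assoc, sub_add_cancel]
  congr 1
  rw [udir, smul_smul, mul_assoc, mul_inv_cancel₀ (norm_dir_pos σ a b).ne', mul_one]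

theorem bary {a b y0 s0 H : ℝ} (hab : b = a + del) (hH : 0 < H) (h1 : a * s0 ≤ y0)
    (h2 : y0 ≤ b * s0) (h3 : s0 ≤ H) :
    ∃ q ∈ T0, q 0 * H * a + q 1 * H * b = y0 ∧ q 0 * H + q 1 * H = s0 := by
  have hd := del_pos
  refine ⟨!₂[(b * s0 - y0) / (H * del), (y0 - a * s0) / (H * del)], ⟨?_, ?_, ?_⟩, ?_, ?_⟩
  · exact div_nonneg (by linarith) (by positivity)
  · exact div_nonneg (by linarith) (by positivity)
  · simp only [Matrix.cons_val_zero, Matrix.cons_val_one]
    rw [← add_div, div_le_one (by positivity), hab]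
    nlinarith
  · simp only [Matrix.cons_val_zero, Matrix.cons_val_one]
    field_simp
    rw [hab]; ring
  · simp only [Matrix.cons_val_zero, Matrix.cons_val_one]
    field_simp
    rw [hab]; ring

noncomputable def tt (k : ℕ) : ℝ := -1 + k * del

@[irreducible] def NN : ℕ := 200000000

theorem tt_succ (k : ℕ) : tt (k + 1) = tt k + del := by unfold tt; push_cast; ring
theorem tt_zero : tt 0 = -1 := by simp [tt]
theorem tt_last : tt NN = 1 := by unfold tt NN del; norm_num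
theorem tt_ge (k : ℕ) : -1 ≤ tt k := by
  unfold tt; have := del_pos; have : (0 : ℝ) ≤ k * del := by positivity
  linarith
theorem tt_le {k : ℕ} (hk : k < NN) : tt (k + 1) ≤ 1 := by
  rw [← tt_last]
  unfold tt
  have : ((k + 1 : ℕ) : ℝ) ≤ NN := by exact_mod_cast hk
  nlinarith [del_pos]

theorem sector {x y s : ℝ} (h : |y| ≤ s) : ∃ k < NN,
    tt k * (s - eps * (tt k + tt (k + 1)) * x) ≤ y - eps * (1 + tt k * tt (k + 1)) * x ∧
    y - eps * (1 + tt k * tt (k + 1)) * x ≤ tt (k + 1) * (s - eps * (tt k + tt (k + 1)) * x) := by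
  rw [abs_le] at h
  obtain ⟨k, hk, h1, h2⟩ := discrete_ivt (fun k => y - tt k * s - eps * x * (1 - tt k ^ 2))
    199999999 (by simp only [tt_zero]; linarith)
    (by have : tt (199999999 + 1) = 1 := by unfold tt del; norm_num
        simp only [this]; linarith)
  exact ⟨k, by unfold NN; omega, by linarith, by linarith⟩

theorem covers (p : E3) (hp : p ∈ Tet) : ∃ σ, ∃ k < NN,
    p ∈ cylinder (udir σ (tt k) (tt (k + 1))) (base σ (tt k) (tt (k + 1))) := by
  obtain ⟨h1, h2⟩ := hp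
  rw [abs_le] at h1 h2
  obtain ⟨k, hk, l1, l2⟩ := sector (x := (p 0 + p 1) / 2) (y := (p 0 - p 1) / 2)
    (s := (p 2 + 1) / 2) (abs_le.2 ⟨by linarith, by linarith⟩)
  obtain ⟨l, hl, u1, u2⟩ := sector (x := (p 0 - p 1) / 2) (y := -((p 0 + p 1) / 2))
    (s := 1 - (p 2 + 1) / 2) (abs_le.2 ⟨by linarith, by linarith⟩)
  have hH : ∀ k < NN, 0 < HH (tt k) (tt (k + 1)) := fun k hk => by
    linarith [(eta_bounds (tt_ge k) (tt_le hk) (tt_succ k) le_rfl
      (by rw [tt_succ]; linarith [del_pos])).2.1]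
  rcases cover_alg (tt_ge k) (tt_le hk) (tt_succ k) (tt_ge l) (tt_le hl) (tt_succ l) l1 l2 u1 u2
    with h | h
  · obtain ⟨q, hq, e1, e2⟩ := bary (tt_succ k) (hH k hk) l1 l2 h
    refine ⟨true, k, hk, ?_⟩
    convert mem_cyl true (tt k) (tt (k + 1)) hq ((p 0 + p 1) / 2) using 1
    ext i
    fin_cases i <;> simp [tri, apex, edge, dir] <;> linarith
  · obtain ⟨q, hq, e1, e2⟩ := bary (tt_succ l) (hH l hl) u1 u2 h
    refine ⟨false, l, hl, ?_⟩
    convert mem_cyl false (tt l) (tt (l + 1)) hq ((p 0 - p 1) / 2) using 1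
    ext i
    fin_cases i <;> simp [tri, apex, edge, dir] <;> linarith

theorem sum_base : ∑ j : Bool × Fin NN, volume (base j.1 (tt j.2) (tt (j.2 + 1))) <
    ENNReal.ofReal (4 * √2) * tau / 2 := by
  have h0 : ∀ k < NN, 0 ≤ 2 * √2 * (FF (tt (k + 1)) - FF (tt k)) := fun k hk =>
    mul_nonneg (by positivity) (le_trans (by have := del_pos; positivity)
      (cost_alg (tt_ge k) (tt_le hk) (tt_succ k)))
  have h1 : ∀ σ : Bool, ∑ k : Fin NN, volume (base σ (tt k) (tt (k + 1))) ≤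
      ENNReal.ofReal (2 * √2 * (FF 1 - FF (-1))) * tau := by
    intro σ
    refine (Finset.sum_le_sum fun (k : Fin NN) _ =>
      volume_base σ (tt_ge k) (tt_le k.2) (tt_succ k)).trans ?_
    rw [← Finset.sum_mul, ← ENNReal.ofReal_sum_of_nonneg fun (k : Fin NN) _ => h0 k k.2,
      ← Finset.mul_sum,
      Fin.sum_univ_eq_sum_range (fun k => FF (tt (k + 1)) - FF (tt k)),
      Finset.sum_range_sub (fun k => FF (tt k)), tt_last, tt_zero]
  rw [Fintype.sum_prod_type, Fintype.sum_bool]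
  refine (add_le_add (h1 true) (h1 false)).trans_lt ?_
  have hF := FF_total
  have hF0 : 0 ≤ FF 1 - FF (-1) := by unfold FF eps; norm_num
  have e : ENNReal.ofReal (4 * √2) * tau / 2 = ENNReal.ofReal (2 * √2) * tau := by
    rw [show (4 : ℝ) * √2 = 2 * (2 * √2) by ring, ENNReal.ofReal_mul (by norm_num),
      ENNReal.ofReal_ofNat, mul_assoc, mul_comm, mul_div_assoc, ENNReal.div_self (by norm_num)
        (by norm_num), mul_one]
  rw [e, ← add_mul, ← ENNReal.ofReal_add (by positivity) (by positivity)]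
  refine ENNReal.mul_lt_mul_left tau_pos.ne' tau_lt_top.ne ?_
  rw [ENNReal.ofReal_lt_ofReal_iff (by positivity)]
  have : (0 : ℝ) < √2 := by positivity
  nlinarith

theorem main : ∃ K : Set E3, IsCompact K ∧ Convex ℝ K ∧ (interior K).Nonempty ∧
    ∃ (m : ℕ) (u : Fin m → E3) (B : (i : Fin m) → Set (ℝ ∙ u i)ᗮ),
      (∀ i, ‖u i‖ = 1) ∧ (∀ i, MeasurableSet (B i)) ∧ (∀ i, volume (B i) < ⊤) ∧
      K ⊆ ⋃ i, cylinder (u i) (B i) ∧
      ∑ i, volume (B i) < minProjArea K / 2 ∧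
      ∑ i, volume (B i) / projArea K (u i) < 1 / 2 := by
  let e := (Fintype.equivFin (Bool × Fin NN)).symm
  have hs := sum_base
  rw [← e.sum_comp] at hs
  refine ⟨Tet, isCompact_Tet, convex_Tet, interior_Tet, _,
    fun i => udir (e i).1 (tt (e i).2) (tt ((e i).2 + 1)),
    fun i => base (e i).1 (tt (e i).2) (tt ((e i).2 + 1)), fun i => norm_udir _ _ _,
    fun i => (isCompact_base _ _ _ _).measurableSet,
    fun i => (isCompact_base _ _ _ _).measure_lt_top, fun p hp => ?_, ?_, ?_⟩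
  · obtain ⟨σ, k, hk, h⟩ := covers p hp
    refine mem_iUnion.2 ⟨e.symm (σ, ⟨k, hk⟩), ?_⟩
    beta_reduce
    rw [e.apply_symm_apply]
    exact h
  · refine hs.trans_le (ENNReal.div_le_div_right ?_ _)
    exact le_iInf₂ fun u hu => projArea_Tet hu
  · have hp : ENNReal.ofReal (4 * √2) * tau ≠ 0 :=
      mul_ne_zero (by simp) tau_pos.ne'
    have ht : ENNReal.ofReal (4 * √2) * tau ≠ ⊤ := ENNReal.mul_ne_top ENNReal.ofReal_ne_top tau_lt_top.ne
    refine (Finset.sum_le_sum fun i _ =>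
      ENNReal.div_le_div_left (projArea_Tet (norm_udir _ _ _)) _).trans_lt ?_
    simp only [div_eq_mul_inv]
    rw [← Finset.sum_mul, ← div_eq_mul_inv, ENNReal.div_lt_iff (Or.inl hp) (Or.inl ht), one_mul,
      mul_comm, ← div_eq_mul_inv]
    exact hs

end Vale.Agent.P243
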